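import Vale.Agent.Lib.P048.Cyc

/-!
Claw-free graphs of minimum degree at least `m - 1` contain `C_m` or an independent `m`-set.
-/

namespace Vale.Agent.Lib.P048

open SimpleGraph Finset

universe u

variable {V : Type u} {G : SimpleGraph V}

/-- no vertex has three pairwise distinct, pairwise non-adjacent neighbours -/
def Claw3 (G : SimpleGraph V) : Prop :=
  ∀ v a b c, G.Adj v a → G.Adj v b → G.Adj v c → a ≠ b → a ≠ c → b ≠ c →
    G.Adj a b ∨ G.Adj a c ∨ G.Adj b c

/-- the neighbourhood of `x` is the disjoint union of two non-empty cliques `A`, `B`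
with no edges between them -/
structure Split (G : SimpleGraph V) (x : V) (A B : Finset V) : Prop where
  cover : ∀ u, G.Adj x u ↔ u ∈ A ∨ u ∈ B
  disj : ∀ u, u ∈ A → u ∉ B
  cliqueA : ∀ a ∈ A, ∀ a' ∈ A, a ≠ a' → G.Adj a a'
  cliqueB : ∀ b ∈ B, ∀ b' ∈ B, b ≠ b' → G.Adj b b'
  cross : ∀ a ∈ A, ∀ b ∈ B, ¬ G.Adj a b
  neA : A.Nonempty
  neB : B.Nonempty

theorem Split.symm {x : V} {A B : Finset V} (h : Split G x A B) : Split G x B A where
  cover u := by rw [h.cover u, or_comm]
  disj u hu hu' := h.disj u hu' hu
  cliqueA := h.cliqueB
  cliqueB := h.cliqueA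
  cross b hb a ha hab := h.cross a ha b hb hab.symm
  neA := h.neB
  neB := h.neA

/-- a duplicate-free list inside a clique is a path -/
theorem isChain_of_clique {l : List V} (hnd : l.Nodup)
    (hcl : ∀ a ∈ l, ∀ b ∈ l, a ≠ b → G.Adj a b) : l.IsChain G.Adj := by
  have hp : l.Pairwise G.Adj := by
    have := hnd
    unfold List.Nodup at this
    exact this.imp_of_mem (fun {a b} ha hb hab => hcl a ha b hb hab)
  exact hp.isChain

theorem keyLemma [DecidableEq V] {m : ℕ} {x : V} {A B : Finset V} (hs : Split G x A B)
    (hdeg : m - 1 ≤ A.card + B.card) {a b : V} (ha : a ∈ A) (hb : b ∈ B) (mid : List V)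
    (hch : (a :: (mid ++ [b])).IsChain G.Adj) (hnd : mid.Nodup)
    (hmid : ∀ t ∈ mid, t ≠ x ∧ ¬ G.Adj x t) (hlen : mid.length + 3 ≤ m) : HasCyc G m := by
  -- choose the extra vertices
  have hcA : (A.erase a).card = A.card - 1 := card_erase_of_mem ha
  have hcB : (B.erase b).card = B.card - 1 := card_erase_of_mem hb
  have hApos : 1 ≤ A.card := card_pos.mpr ⟨a, ha⟩
  have hBpos : 1 ≤ B.card := card_pos.mpr ⟨b, hb⟩
  set k := m - 3 - mid.length with hk
  obtain ⟨A', hA', hA'c⟩ := exists_subset_card_eq (s := A.erase a) (n := min k (A.erase a).card)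
    (min_le_right _ _)
  obtain ⟨B', hB', hB'c⟩ := exists_subset_card_eq (s := B.erase b)
    (n := k - min k (A.erase a).card) (by omega)
  have hxA : ∀ u ∈ A, G.Adj x u := fun u hu => (hs.cover u).mpr (Or.inl hu)
  have hxB : ∀ u ∈ B, G.Adj x u := fun u hu => (hs.cover u).mpr (Or.inr hu)
  have hA'A : ∀ u ∈ A', u ∈ A ∧ u ≠ a := fun u hu => by
    have := hA' hu
    rw [mem_erase] at this
    exact ⟨this.2, this.1⟩
  have hB'B : ∀ u ∈ B', u ∈ B ∧ u ≠ b := fun u hu => by
    have := hB' hu
    rw [mem_erase] at this
    exact ⟨this.2, this.1⟩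
  refine ⟨x, A'.toList ++ a :: (mid ++ b :: B'.toList), ?_, ?_, ?_, ?_⟩
  · -- nodup
    have hmA : ∀ t ∈ mid, t ∉ A := fun t ht htA => (hmid t ht).2 (hxA t htA)
    have hmB : ∀ t ∈ mid, t ∉ B := fun t ht htB => (hmid t ht).2 (hxB t htB)
    have hne : ∀ u, G.Adj x u → x ≠ u := fun u hu => hu.ne
    rw [List.nodup_cons]
    constructor
    · simp only [List.mem_append, mem_toList, List.mem_cons, not_or]
      refine ⟨fun h => (hne x (hxA x (hA'A x h).1)) rfl, (hne a (hxA a ha)), ?_,
        (hne b (hxB b hb)), fun h => (hne x (hxB x (hB'B x h).1)) rfl⟩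
      intro h
      exact (hmid x h).1 rfl
    · rw [List.nodup_append]
      refine ⟨A'.nodup_toList, ?_, ?_⟩
      · rw [List.nodup_cons]
        constructor
        · simp only [List.mem_append, mem_toList, List.mem_cons, not_or]
          refine ⟨fun h => hmA a h ha, ?_, fun h => hs.disj a ha (hB'B a h).1⟩
          rintro rfl
          exact hs.disj a ha hb
        · rw [List.nodup_append]
          refine ⟨hnd, ?_, ?_⟩
          · rw [List.nodup_cons]
            exact ⟨fun h => (hB'B b (mem_toList.mp h)).2 rfl, B'.nodup_toList⟩
          · intro t ht u hu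
            simp only [List.mem_cons, mem_toList] at hu
            rcases hu with rfl | hu
            · rintro rfl
              exact hmB t ht hb
            · rintro rfl
              exact hmB t ht (hB'B t hu).1
      · intro t ht u hu
        rw [mem_toList] at ht
        simp only [List.mem_cons, List.mem_append, mem_toList] at hu
        rcases hu with rfl | hu | rfl | hu
        · exact (hA'A t ht).2
        · rintro rfl
          exact hmA t hu (hA'A t ht).1
        · rintro rfl
          exact hs.disj t (hA'A t ht).1 hb
        · rintro rfl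
          exact hs.disj t (hA'A t ht).1 (hB'B t hu).1
  · -- chain
    have c1 : (A'.toList ++ [a]).IsChain G.Adj := by
      apply isChain_of_clique
      · rw [List.nodup_append]
        refine ⟨A'.nodup_toList, by simp, ?_⟩
        intro t ht u hu
        simp only [List.mem_singleton] at hu
        subst hu
        exact (hA'A t (mem_toList.mp ht)).2
      · intro p hp q hq hpq
        have hpA : p ∈ A := by
          simp only [List.mem_append, mem_toList, List.mem_singleton] at hp
          rcases hp with hp | rfl
          · exact (hA'A p hp).1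
          · exact ha
        have hqA : q ∈ A := by
          simp only [List.mem_append, mem_toList, List.mem_singleton] at hq
          rcases hq with hq | rfl
          · exact (hA'A q hq).1
          · exact ha
        exact hs.cliqueA p hpA q hqA hpq
    have c3 : (b :: B'.toList).IsChain G.Adj := by
      apply isChain_of_clique
      · rw [List.nodup_cons]
        exact ⟨fun h => (hB'B b (mem_toList.mp h)).2 rfl, B'.nodup_toList⟩
      · intro p hp q hq hpq
        have hpB : p ∈ B := by
          simp only [List.mem_cons, mem_toList] at hp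
          rcases hp with rfl | hp
          · exact hb
          · exact (hB'B p hp).1
        have hqB : q ∈ B := by
          simp only [List.mem_cons, mem_toList] at hq
          rcases hq with rfl | hq
          · exact hb
          · exact (hB'B q hq).1
        exact hs.cliqueB p hpB q hqB hpq
    have c2 : (a :: (mid ++ b :: B'.toList)).IsChain G.Adj :=
      List.isChain_cons_split.mpr ⟨hch, c3⟩
    have c4 : (A'.toList ++ a :: (mid ++ b :: B'.toList)).IsChain G.Adj :=
      List.isChain_split.mpr ⟨c1, c2⟩
    apply c4.cons
    intro y hy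
    have : y ∈ A := by
      cases hl : A'.toList with
      | nil =>
        rw [hl] at hy
        simp at hy
        subst hy
        exact ha
      | cons z zs =>
        rw [hl] at hy
        simp at hy
        subst hy
        have : z ∈ A'.toList := by rw [hl]; simp
        exact (hA'A z (mem_toList.mp this)).1
    exact hxA y this
  · -- closing edge
    intro y hy
    have : y ∈ B := by
      have h1 : (A'.toList ++ a :: (mid ++ b :: B'.toList))
          = (A'.toList ++ a :: mid) ++ (b :: B'.toList) := by simp
      rw [h1, List.getLast?_append_of_ne_nil _ (List.cons_ne_nil _ _)] at hy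
      have h2 : y ∈ (b :: B'.toList) := List.mem_of_getLast? hy
      simp only [List.mem_cons, mem_toList] at h2
      rcases h2 with rfl | h2
      · exact hb
      · exact (hB'B y h2).1
    exact (hxB y this).symm
  · -- length
    simp only [List.length_append, length_toList, List.length_cons, hA'c, hB'c]
    omega


/-- duplicate-free paths inside the neighbourhood of `x` -/
def NbrPath (G : SimpleGraph V) (x : V) (l : List V) : Prop :=
  l.Nodup ∧ l.IsChain G.Adj ∧ ∀ u ∈ l, G.Adj x u

theorem exists_longest [Fintype V] {x u : V} (hu : G.Adj x u) :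
    ∃ l, NbrPath G x l ∧ l ≠ [] ∧ ∀ l', NbrPath G x l' → l'.length ≤ l.length := by
  classical
  let P : ℕ → Prop := fun k => ∃ l, NbrPath G x l ∧ l.length = k
  have h1 : P 1 := ⟨[u], ⟨by simp, by simp, by simpa using hu⟩, rfl⟩
  have hb : ∀ l, NbrPath G x l → l.length ≤ Fintype.card V := fun l hl => hl.1.length_le_card
  have hcard : 1 ≤ Fintype.card V := by
    have := hb [u] ⟨by simp, by simp, by simpa using hu⟩
    simpa using this
  obtain ⟨l, hl, hlen⟩ := Nat.findGreatest_spec (P := P) hcard h1
  refine ⟨l, hl, ?_, ?_⟩
  · have : 1 ≤ Nat.findGreatest P (Fintype.card V) := Nat.le_findGreatest hcard h1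
    rintro rfl
    simp at hlen
    omega
  · intro l' hl'
    rw [hlen]
    exact Nat.le_findGreatest (hb l' hl') ⟨l', hl', rfl⟩

open Classical in
theorem stepA [Fintype V] (hclaw : Claw3 G) {m : ℕ} (hm : 3 ≤ m) (x : V)
    (hdeg : m - 1 ≤ (univ.filter (fun u => G.Adj x u)).card) :
    HasCyc G m ∨ ∃ A B : Finset V, Split G x A B := by
  have hpos : 0 < (univ.filter (fun u => G.Adj x u)).card := by omega
  obtain ⟨u0, hu0⟩ := card_pos.mp hpos
  rw [mem_filter] at hu0
  obtain ⟨l, ⟨hnd, hch, hadj⟩, hne, hmax⟩ := exists_longest hu0.2
  by_cases hl : m - 1 ≤ l.length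
  · left
    have hmem : ∀ u ∈ l.take (m - 1), G.Adj x u := fun u hu => hadj u (List.mem_of_mem_take hu)
    refine ⟨x, l.take (m - 1), ?_, ?_, ?_, ?_⟩
    · rw [List.nodup_cons]
      exact ⟨fun h => (hmem x h).ne rfl, hnd.sublist (List.take_sublist _ _)⟩
    · apply (hch.take _).cons
      intro y hy
      exact hmem y (List.mem_of_head? hy)
    · intro y hy
      exact (hmem y (List.mem_of_getLast? hy)).symm
    · rw [List.length_take]
      omega
  · right
    push Not at hl
    have hlt : l.toFinset.card < (univ.filter (fun u => G.Adj x u)).card :=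
      lt_of_le_of_lt (List.toFinset_card_le l) (by omega)
    obtain ⟨y, hyN, hyl⟩ := exists_mem_notMem_of_card_lt_card hlt
    rw [mem_filter] at hyN
    rw [List.mem_toFinset] at hyl
    have hxy := hyN.2
    -- the path closes up
    have hclose : ∀ p ∈ l.getLast?, ∀ q ∈ l.head?, p ≠ q → G.Adj p q := by
      intro p hp q hq hpq
      have hpl : p ∈ l := List.mem_of_getLast? hp
      have hql : q ∈ l := List.mem_of_head? hq
      have h1 : ¬ G.Adj y q := by
        intro h
        have := hmax (y :: l) ⟨List.nodup_cons.mpr ⟨hyl, hnd⟩, hch.cons (by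
          intro z hz
          have : z = q := by
            rw [Option.mem_def] at hz hq
            rw [hz] at hq
            exact Option.some.inj hq
          rw [this]; exact h), by
          intro z hz
          rcases List.mem_cons.mp hz with rfl | hz
          · exact hxy
          · exact hadj z hz⟩
        simp at this
      have h2 : ¬ G.Adj y p := by
        intro h
        have := hmax (l ++ [y]) ⟨by
          rw [List.nodup_append]
          refine ⟨hnd, by simp, ?_⟩
          intro a ha b hb
          simp only [List.mem_singleton] at hb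
          subst hb
          rintro rfl
          exact hyl ha, hch.append (by simp) (by
          intro z hz w hw
          have hz' : z = p := by
            rw [Option.mem_def] at hz hp
            rw [hz] at hp
            exact Option.some.inj hp
          simp at hw
          subst hw
          rw [hz']; exact h.symm), by
          intro z hz
          rcases List.mem_append.mp hz with hz | hz
          · exact hadj z hz
          · simp only [List.mem_singleton] at hz
            subst hz
            exact hxy⟩
        simp at this
      have hyp : y ≠ p := fun h => hyl (h ▸ hpl)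
      have hyq : y ≠ q := fun h => hyl (h ▸ hql)
      rcases hclaw x y p q hxy (hadj p hpl) (hadj q hql) hyp hyq hpq with h | h | h
      · exact absurd h h2
      · exact absurd h h1
      · exact h
    -- no edges leaving the path inside the neighbourhood
    have hno : ∀ y', G.Adj x y' → y' ∉ l → ∀ u ∈ l, ¬ G.Adj y' u := by
      intro y' hxy' hy'l u hul hy'u
      obtain ⟨l1, l2, rfl⟩ := List.append_of_mem hul
      have hch' := List.isChain_append.mp hch
      have hnd' := List.nodup_append.mp hnd
      have := hmax ((y' :: u :: l2) ++ l1) ⟨?_, ?_, ?_⟩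
      · simp at this
        omega
      · have hperm : ((y' :: u :: l2) ++ l1).Perm (y' :: (l1 ++ u :: l2)) := by
          have h1 : ((u :: l2) ++ l1).Perm (l1 ++ u :: l2) := List.perm_append_comm
          exact List.Perm.cons _ h1
        rw [hperm.nodup_iff, List.nodup_cons]
        exact ⟨hy'l, hnd⟩
      · apply List.IsChain.append
        · exact hch'.2.1.cons_cons hy'u
        · exact hch'.1
        · intro p hp q hq
          have hq1 : q ∈ l1 := List.mem_of_head? hq
          have hp' : p ∈ (l1 ++ u :: l2).getLast? := by
            rw [List.getLast?_append_of_ne_nil _ (List.cons_ne_nil _ _)]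
            rw [List.getLast?_cons_cons] at hp
            exact hp
          have hq' : q ∈ (l1 ++ u :: l2).head? := by
            have hl1 : l1 ≠ [] := List.ne_nil_of_mem hq1
            rw [List.head?_append_of_ne_nil _ hl1]
            exact hq
          have hp2 : p ∈ u :: l2 := by
            rw [List.getLast?_cons_cons] at hp
            exact List.mem_of_getLast? hp
          exact hclose p hp' q hq' (fun h => hnd'.2.2 q hq1 p hp2 h.symm)
      · intro z hz
        simp only [List.cons_append, List.mem_cons, List.mem_append] at hz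
        rcases hz with rfl | rfl | hz | hz
        · exact hxy'
        · exact hadj z hul
        · exact hadj z (by simp [hz])
        · exact hadj z (by simp [hz])
    obtain ⟨q0, hq0⟩ := List.exists_mem_of_ne_nil l hne
    refine ⟨l.toFinset, (univ.filter (fun u => G.Adj x u)) \ l.toFinset, ?_⟩
    constructor
    · intro u
      simp only [List.mem_toFinset, mem_sdiff, mem_filter, mem_univ, true_and]
      constructor
      · intro h
        by_cases hul : u ∈ l
        · exact Or.inl hul
        · exact Or.inr ⟨h, hul⟩
      · rintro (h | h)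
        · exact hadj u h
        · exact h.1
    · intro u hu hu'
      rw [mem_sdiff] at hu'
      exact hu'.2 hu
    · intro a ha a' ha' haa'
      rw [List.mem_toFinset] at ha ha'
      have hya : y ≠ a := fun h => hyl (h ▸ ha)
      have hya' : y ≠ a' := fun h => hyl (h ▸ ha')
      rcases hclaw x y a a' hxy (hadj a ha) (hadj a' ha') hya hya' haa' with h | h | h
      · exact absurd h (hno y hxy hyl a ha)
      · exact absurd h (hno y hxy hyl a' ha')
      · exact h
    · intro b hb b' hb' hbb'
      simp only [List.mem_toFinset, mem_sdiff, mem_filter, mem_univ, true_and] at hb hb'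
      have hqb : q0 ≠ b := fun h => hb.2 (h ▸ hq0)
      have hqb' : q0 ≠ b' := fun h => hb'.2 (h ▸ hq0)
      rcases hclaw x q0 b b' (hadj q0 hq0) hb.1 hb'.1 hqb hqb' hbb' with h | h | h
      · exact absurd h.symm (hno b hb.1 hb.2 q0 hq0)
      · exact absurd h.symm (hno b' hb'.1 hb'.2 q0 hq0)
      · exact h
    · intro a ha b hb hab
      simp only [List.mem_toFinset, mem_sdiff, mem_filter, mem_univ, true_and] at ha hb
      exact hno b hb.1 hb.2 a ha hab.symm
    · exact ⟨q0, List.mem_toFinset.mpr hq0⟩
    · exact ⟨y, by simp [hxy, hyl]⟩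


open Classical in
theorem Split.card_eq [Fintype V] {x : V} {A B : Finset V} (h : Split G x A B) :
    (univ.filter (fun u => G.Adj x u)).card = A.card + B.card := by
  have hd : Disjoint A B := by
    rw [Finset.disjoint_left]
    exact h.disj
  rw [← card_union_of_disjoint hd]
  congr 1
  ext u
  simp [h.cover u]

open Classical in
theorem structural [Fintype V] (hclaw : Claw3 G) {m : ℕ} (hm : 5 ≤ m) (v : V)
    (hdeg : ∀ x, m - 1 ≤ (univ.filter (fun u => G.Adj x u)).card) :
    HasCyc G m ∨ ∃ s : Finset V, G.IsNIndepSet m s := by
  by_cases hc : HasCyc G m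
  · exact Or.inl hc
  right
  have hsplit : ∀ x, ∃ A B, Split G x A B :=
    fun x => (stepA hclaw (by omega) x (hdeg x)).resolve_left hc
  have hsplit' : ∀ x u, G.Adj x u → ∃ A B, Split G x A B ∧ u ∈ A := by
    intro x u hu
    obtain ⟨A, B, hS⟩ := hsplit x
    rcases (hS.cover u).mp hu with h | h
    · exact ⟨A, B, hS, h⟩
    · exact ⟨B, A, hS.symm, h⟩
  have key : ∀ x A B, Split G x A B → ∀ a ∈ A, ∀ b ∈ B, ∀ mid : List V,
      (a :: (mid ++ [b])).IsChain G.Adj → mid.Nodup → (∀ t ∈ mid, t ≠ x ∧ ¬ G.Adj x t) →
      mid.length ≤ 2 → False := by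
    intro x A B hS a ha b hb mid h1 h2 h3 h4
    exact hc (keyLemma hS (by rw [← hS.card_eq]; exact hdeg x) ha hb mid h1 h2 h3 (by omega))
  have hz : ∀ w, G.Adj v w → ∃ (A B : Finset V) (z : V), Split G w A B ∧ v ∈ A ∧ z ∈ B := by
    intro w hw
    obtain ⟨A, B, hS, hvA⟩ := hsplit' w v hw.symm
    obtain ⟨z, hzB⟩ := hS.neB
    exact ⟨A, B, z, hS, hvA, hzB⟩
  have : Nonempty V := ⟨v⟩
  choose! A B z hz using hz
  have pair : ∀ w w', G.Adj v w → G.Adj v w' → w ≠ w' → z w ≠ z w' ∧ ¬ G.Adj (z w) (z w') := by
    intro w w' hw hw' hne
    obtain ⟨hS, hvA, hzB⟩ := hz w hw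
    obtain ⟨hS', hvA', hzB'⟩ := hz w' hw'
    have e1 : G.Adj w (z w) := (hS.cover _).mpr (Or.inr hzB)
    have e1' : G.Adj w' (z w') := (hS'.cover _).mpr (Or.inr hzB')
    have n1 : ¬ G.Adj v (z w) := hS.cross v hvA _ hzB
    have n1' : ¬ G.Adj v (z w') := hS'.cross v hvA' _ hzB'
    have d1 : z w ≠ v := fun h => hS.disj v hvA (h ▸ hzB)
    have d1' : z w' ≠ v := fun h => hS'.disj v hvA' (h ▸ hzB')
    by_cases hww : G.Adj w w'
    · have hw'A : w' ∈ A w := by
        rcases (hS.cover w').mp hww with h | h
        · exact h
        · exact absurd hw' (hS.cross v hvA w' h)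
      constructor
      · intro heq
        exact hS.cross w' hw'A (z w) hzB (heq ▸ e1')
      · intro hadj
        apply key w (A w) (B w) hS w' hw'A (z w) hzB [z w']
        · simp only [List.cons_append, List.nil_append, List.isChain_cons_cons,
            List.IsChain.singleton, and_true]
          exact ⟨e1', hadj.symm⟩
        · simp
        · intro t ht
          simp only [List.mem_singleton] at ht
          subst ht
          constructor
          · intro h
            exact n1' (h ▸ hw)
          · intro h
            rcases (hS.cover _).mp h with h | h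
            · exact n1' (hS.cliqueA v hvA _ h d1'.symm)
            · exact hS.cross w' hw'A _ h e1'
        · simp
    · obtain ⟨Av, Bv, hSv, hwA⟩ := hsplit' v w hw
      have hw'B : w' ∈ Bv := by
        rcases (hSv.cover w').mp hw' with h | h
        · exact absurd (hSv.cliqueA w hwA w' h hne) hww
        · exact h
      constructor
      · intro heq
        apply key v Av Bv hSv w hwA w' hw'B [z w]
        · simp only [List.cons_append, List.nil_append, List.isChain_cons_cons,
            List.IsChain.singleton, and_true]
          exact ⟨e1, (heq ▸ e1').symm⟩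
        · simp
        · intro t ht
          simp only [List.mem_singleton] at ht
          subst ht
          exact ⟨d1, n1⟩
        · simp
      · intro hadj
        apply key v Av Bv hSv w hwA w' hw'B [z w, z w']
        · simp only [List.cons_append, List.nil_append, List.isChain_cons_cons,
            List.IsChain.singleton, and_true]
          exact ⟨e1, hadj, e1'.symm⟩
        · simp [hadj.ne]
        · intro t ht
          simp only [List.mem_cons, List.not_mem_nil, or_false] at ht
          rcases ht with rfl | rfl
          · exact ⟨d1, n1⟩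
          · exact ⟨d1', n1'⟩
        · simp
  set N := univ.filter (fun u => G.Adj v u) with hN
  have hNmem : ∀ w, w ∈ N ↔ G.Adj v w := by intro w; simp [hN]
  have hinj : Set.InjOn z (N : Set V) := by
    intro w hw w' hw' heq
    by_contra hne
    exact (pair w w' ((hNmem w).mp hw) ((hNmem w').mp hw') hne).1 heq
  have hvn : v ∉ N.image z := by
    intro h
    obtain ⟨w, hw, hzw⟩ := mem_image.mp h
    obtain ⟨hS, hvA, hzB⟩ := hz w ((hNmem w).mp hw)
    exact hS.disj v hvA (hzw ▸ hzB)
  have hcard : m ≤ (insert v (N.image z)).card := by
    rw [card_insert_of_notMem hvn, card_image_of_injOn hinj]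
    have h3 : m - 1 ≤ N.card := hdeg v
    omega
  obtain ⟨t, ht, htc⟩ := exists_subset_card_eq hcard
  refine ⟨t, ⟨?_, htc⟩⟩
  intro a ha b hb hab
  have ha' := ht ha
  have hb' := ht hb
  rw [mem_insert, mem_image] at ha' hb'
  rcases ha' with rfl | ⟨w, hw, rfl⟩
  · rcases hb' with rfl | ⟨w', hw', rfl⟩
    · exact absurd rfl hab
    · obtain ⟨hS, hvA, hzB⟩ := hz w' ((hNmem w').mp hw')
      exact hS.cross _ hvA _ hzB
  · rcases hb' with rfl | ⟨w', hw', rfl⟩
    · obtain ⟨hS, hvA, hzB⟩ := hz w ((hNmem w).mp hw)
      exact fun h => hS.cross _ hvA _ hzB h.symm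
    · have hne : w ≠ w' := fun h => hab (by rw [h])
      exact (pair w w' ((hNmem w).mp hw) ((hNmem w').mp hw') hne).2


theorem HasCyc.of_induce {S : Set V} {m : ℕ} (h : HasCyc (G.induce S) m) : HasCyc G m := by
  obtain ⟨x, l, hnd, hch, hlast, hlen⟩ := h
  refine ⟨x.1, l.map Subtype.val, ?_, ?_, ?_, by simpa using hlen⟩
  · have := hnd.map Subtype.val_injective
    simpa using this
  · have : ((x :: l).map Subtype.val).IsChain G.Adj := by
      rw [List.isChain_map]
      exact hch.imp (fun a b hab => by simpa using hab)
    simpa using this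
  · intro y hy
    rw [List.getLast?_map] at hy
    simp only [Option.mem_def, Option.map_eq_some_iff] at hy
    obtain ⟨a, ha, rfl⟩ := hy
    have := hlast a ha
    simpa using this

theorem Claw3.induce (h : Claw3 G) (S : Set V) : Claw3 (G.induce S) := by
  intro v a b c hva hvb hvc hab hac hbc
  have := h v.1 a.1 b.1 c.1 (by simpa using hva) (by simpa using hvb) (by simpa using hvc)
    (fun h => hab (Subtype.ext h)) (fun h => hac (Subtype.ext h)) (fun h => hbc (Subtype.ext h))
  simpa using this

theorem IsNIndepSet.exists_smaller {n k : ℕ} {s : Finset V} (h : G.IsNIndepSet n s) (hk : k ≤ n) :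
    ∃ t : Finset V, G.IsNIndepSet k t := by
  obtain ⟨t, ht, htc⟩ := exists_subset_card_eq (s := s) (n := k) (by rw [h.card_eq]; exact hk)
  exact ⟨t, ⟨h.isIndepSet.mono (by exact_mod_cast ht), htc⟩⟩

open Classical in
theorem main (m : ℕ) (hm : 5 ≤ m) : ∀ n, n ≤ m → ∀ (V : Type u) [Fintype V] (G : SimpleGraph V),
    Claw3 G → (m - 1) * (n - 1) + 1 ≤ Fintype.card V →
    HasCyc G m ∨ ∃ s : Finset V, G.IsNIndepSet n s := by
  intro n
  induction n with
  | zero =>
    intro _ V _ G _ _
    exact Or.inr ⟨∅, ⟨by simp, by simp⟩⟩
  | succ n ih =>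
    intro hn V _ G hclaw hcard
    have hpos : 0 < Fintype.card V := by omega
    obtain ⟨v0⟩ := Fintype.card_pos_iff.mp hpos
    rcases Nat.eq_zero_or_pos n with rfl | hnpos
    · exact Or.inr ⟨{v0}, ⟨by simp, by simp⟩⟩
    simp only [Nat.add_sub_cancel] at hcard
    by_cases hex : ∃ v, (m - 1) * (n - 1) + 1 ≤
        (univ.filter (fun u => u ≠ v ∧ ¬ G.Adj v u)).card
    · obtain ⟨v, hv⟩ := hex
      set S : Set V := {u | u ≠ v ∧ ¬ G.Adj v u} with hS
      have hcS : Fintype.card S = (univ.filter (fun u => u ≠ v ∧ ¬ G.Adj v u)).card := by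
        rw [Fintype.card_subtype]
        congr 1
      rcases ih (by omega) S (G.induce S) (hclaw.induce S) (by rw [hcS]; exact hv) with h | h
      · exact Or.inl h.of_induce
      · right
        obtain ⟨s, hs⟩ := h
        refine ⟨insert v (s.map (Function.Embedding.subtype _)), ⟨?_, ?_⟩⟩
        · intro a ha b hb hab
          simp only [coe_insert, coe_map, Function.Embedding.subtype_apply, Set.mem_insert_iff,
            Set.mem_image, mem_coe] at ha hb
          rcases ha with rfl | ⟨a', ha', rfl⟩
          · rcases hb with rfl | ⟨b', hb', rfl⟩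
            · exact absurd rfl hab
            · exact b'.2.2
          · rcases hb with rfl | ⟨b', hb', rfl⟩
            · exact fun h => a'.2.2 h.symm
            · have hne : a' ≠ b' := fun h => hab (by rw [h])
              have := hs.isIndepSet ha' hb' hne
              simpa using this
        · rw [card_insert_of_notMem, card_map, hs.card_eq]
          intro h
          simp only [mem_map, Function.Embedding.subtype_apply] at h
          obtain ⟨a, _, ha⟩ := h
          exact a.2.1 ha
    · push Not at hex
      have hdeg : ∀ x, m - 1 ≤ (univ.filter (fun u => G.Adj x u)).card := by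
        intro x
        have h1 := hex x
        have h2 : (univ.filter (fun u => G.Adj x u)).card
            + (univ.filter (fun u => ¬ G.Adj x u)).card = Fintype.card V := by
          rw [card_filter_add_card_filter_not, card_univ]
        have h3 : univ.filter (fun u => ¬ G.Adj x u)
            = insert x (univ.filter (fun u => u ≠ x ∧ ¬ G.Adj x u)) := by
          ext u
          simp only [mem_filter, mem_univ, true_and, mem_insert]
          constructor
          · intro h
            by_cases hux : u = x
            · exact Or.inl hux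
            · exact Or.inr ⟨hux, h⟩
          · rintro (rfl | h)
            · exact G.loopless.irrefl _
            · exact h.2
        rw [h3, card_insert_of_notMem (by simp)] at h2
        have h4 : (m - 1) * n = (m - 1) * (n - 1) + (m - 1) := by
          obtain ⟨k, rfl⟩ : ∃ k, n = k + 1 := ⟨n - 1, by omega⟩
          simp [Nat.mul_succ]
        omega
      rcases structural hclaw hm v0 hdeg with h | ⟨s, hs⟩
      · exact Or.inl h
      · exact Or.inr (IsNIndepSet.exists_smaller hs hn)

end Vale.Agent.Lib.P048
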