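import Mathlib

/-!
List-based cycles in simple graphs and conversion to Mathlib walks.
-/

namespace Vale.Agent.Lib.P048

open SimpleGraph

universe u

variable {V : Type u} {G : SimpleGraph V}

/-- `HasCyc G m`: there is a cycle with exactly `m` vertices, given as a duplicate-free list
`x :: l` of `m` vertices, consecutive ones adjacent and the last adjacent to the first. -/
def HasCyc (G : SimpleGraph V) (m : ℕ) : Prop :=
  ∃ (x : V) (l : List V), (x :: l).Nodup ∧ (x :: l).IsChain G.Adj ∧
    (∀ y ∈ l.getLast?, G.Adj y x) ∧ l.length + 1 = m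

theorem HasCyc.exists_walk {m : ℕ} (h : HasCyc G m) (hm : 3 ≤ m) :
    ∃ (v : V) (c : G.Walk v v), c.IsCycle ∧ c.length = m := by
  obtain ⟨x, l, hnd, hch, hlast, hlen⟩ := h
  have hne : l ≠ [] := by
    rintro rfl
    simp at hlen
    omega
  have hne' : (x :: l) ≠ [] := List.cons_ne_nil _ _
  set p := Walk.ofSupport (x :: l) hne' hch with hp
  have hadj : G.Adj ((x :: l).getLast hne') ((x :: l).head hne') := by
    have h1 : (x :: l).getLast hne' = l.getLast hne := List.getLast_cons hne
    rw [h1]
    apply hlast
    simp [List.getLast?_eq_some_getLast hne]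
  refine ⟨_, Walk.cons hadj p, ?_, ?_⟩
  · rw [Walk.isCycle_iff_isPath_tail_and_le_length]
    constructor
    · have hpath : p.IsPath := by
        rw [Walk.isPath_def, hp, Walk.support_ofSupport]
        exact hnd
      simpa only [Walk.getVert_cons_succ, Walk.tail_cons, Walk.isPath_copy] using hpath
    · simp only [Walk.length_cons, hp, Walk.length_ofSupport, List.length_cons]
      omega
  · simp only [Walk.length_cons, hp, Walk.length_ofSupport, List.length_cons]
    omega

end Vale.Agent.Lib.P048
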